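import Vale.Agent.P032.H782.Sweep
import Vale.Agent.P032.S5.H80.Ray
import Vale.Agent.P032.S5.H767.Raw

/-!
# P032: germ cells at a point and the sweep by the arcs of a circle

`Cel V p m` : the cell in the direction `m` of the circles about the finite set `V` (all through
`p`): `m` in general position gives the sectors, `m` orthogonal to `v - p` gives the cusps.
`sweep_cel` : the cell form of the sweep.  `move_*` : a point of `S(w)` at the time `t`, near the
time of `u`, is outside or inside `S(p)`, `p = u + cis ((t₀ + j) π / 3)`.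
`sweep_right`, `sweep_left` : both together.
-/

open Set Filter Topology Metric

noncomputable section

namespace Vale.Agent.P032.H782

open Vale.Agent.P032.Six Vale.Agent.P032.S5.H767

variable {k : ℕ} {U : Fin k → Set ℂ} {T : ℂ → Set (Fin k)}

/-- the germ cell at `p` in the direction `m` of the circles about the points of `V` -/
def Cel (V : Finset ℂ) (p m : ℂ) : Set ℂ :=
  {w | ∀ v ∈ V, (0 < ip m (v - p) → dist w v < 1) ∧ (ip m (v - p) ≤ 0 → 1 < dist w v)}

theorem isOpen_Cel (V : Finset ℂ) (p m : ℂ) : IsOpen (Cel V p m) := by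
  have e : Cel V p m = ⋂ v ∈ V, {w | (0 < ip m (v - p) → dist w v < 1) ∧
      (ip m (v - p) ≤ 0 → 1 < dist w v)} := by
    ext w; simp [Cel]
  rw [e]
  refine isOpen_biInter_finset fun v _ => ?_
  by_cases hv : 0 < ip m (v - p)
  · have e2 : {w | (0 < ip m (v - p) → dist w v < 1) ∧ (ip m (v - p) ≤ 0 → 1 < dist w v)} =
        {w | dist w v < 1} := by
      ext w
      exact ⟨fun hw => hw.1 hv, fun hw => ⟨fun _ => hw, fun hn => absurd hv (not_lt.2 hn)⟩⟩
    rw [e2]
    exact isOpen_lt (continuous_id.dist continuous_const) continuous_const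
  · have e2 : {w | (0 < ip m (v - p) → dist w v < 1) ∧ (ip m (v - p) ≤ 0 → 1 < dist w v)} =
        {w | 1 < dist w v} := by
      ext w
      exact ⟨fun hw => hw.2 (not_lt.1 hv), fun hw => ⟨fun hn => absurd hn hv, fun _ => hw⟩⟩
    rw [e2]
    exact isOpen_lt continuous_const (continuous_id.dist continuous_const)

/-- a segment towards the side of `v` starts inside the disc about `v` -/
theorem seg_in {p m v : ℂ} (hv : dist p v = 1) (h : 0 < ip m (v - p)) :
    ∀ᶠ s : ℝ in 𝓝[>] 0, dist (p + s * m) v < 1 := by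
  have h0 : 0 ≤ ip m m := by unfold ip; nlinarith [sq_nonneg m.re, sq_nonneg m.im]
  have h1 : ∀ᶠ s : ℝ in 𝓝[>] 0, s * (ip m m + 1) < 2 * ip m (v - p) := by
    have hc : Continuous fun s : ℝ => s * (ip m m + 1) := by fun_prop
    have h2 := hc.tendsto 0
    simp only [zero_mul] at h2
    exact (h2.eventually (Iio_mem_nhds (by linarith : (0 : ℝ) < 2 * ip m (v - p)))).filter_mono
      nhdsWithin_le_nhds
  filter_upwards [h1, self_mem_nhdsWithin] with s hs1 hs2
  have hs2 : (0 : ℝ) < s := hs2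
  have h3 := sq_line p m v s
  rw [hv] at h3
  have h4 : s * (s * (ip m m + 1)) < s * (2 * ip m (v - p)) := mul_lt_mul_of_pos_left hs1 hs2
  have h5 : dist (p + s * m) v ^ 2 < 1 := by rw [h3]; nlinarith
  have h6 := dist_nonneg (x := p + s * m) (y := v)
  nlinarith

/-- a segment away from `v`, or tangent, starts outside the disc about `v` -/
theorem seg_out {p m v : ℂ} (hv : dist p v = 1) (hm : m ≠ 0) (h : ip m (v - p) ≤ 0) :
    ∀ᶠ s : ℝ in 𝓝[>] 0, 1 < dist (p + s * m) v := by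
  have h0 : 0 < ip m m := by
    have h1 : 0 < Complex.normSq m := Complex.normSq_pos.2 hm
    rw [Complex.normSq_apply] at h1
    exact h1
  filter_upwards [self_mem_nhdsWithin] with s hs
  have hs : (0 : ℝ) < s := hs
  have h3 := sq_line p m v s
  rw [hv] at h3
  have h4 : 0 < s ^ 2 * ip m m := by positivity
  have h5 : 1 < dist (p + s * m) v ^ 2 := by rw [h3]; nlinarith
  have h6 := dist_nonneg (x := p + s * m) (y := v)
  nlinarith

/-- the cell contains the segment -/
theorem seg_Cel {V : Finset ℂ} {p m : ℂ} (hV : ∀ v ∈ V, dist p v = 1) (hm : m ≠ 0) :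
    ∀ᶠ s : ℝ in 𝓝[>] 0, p + s * m ∈ Cel V p m := by
  have h1 : ∀ᶠ s : ℝ in 𝓝[>] 0, ∀ v ∈ V, (0 < ip m (v - p) → dist (p + s * m) v < 1) ∧
      (ip m (v - p) ≤ 0 → 1 < dist (p + s * m) v) := by
    rw [Filter.eventually_all_finset]
    intro v hv
    by_cases h2 : 0 < ip m (v - p)
    · filter_upwards [seg_in (hV v hv) h2] with s hs
      exact ⟨fun _ => hs, fun h3 => absurd h2 (not_lt.2 h3)⟩
    · filter_upwards [seg_out (hV v hv) hm (not_lt.1 h2)] with s hs
      exact ⟨fun h3 => absurd h3 h2, fun _ => hs⟩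
  exact h1

/-- every cell has a colour -/
theorem cel_exists (h : Irr U T) {V : Finset ℂ} {p m : ℂ} (hV : ∀ v ∈ V, dist p v = 1)
    (hm : m ≠ 0) : ∃ c, OccIn T p (Cel V p m) c :=
  occ_exists h (isOpen_Cel V p m) (seg_Cel hV hm)

/-- **The sweep of a cell**: points with the exact palette `P` accumulate at `u` outside `S(p)` and
the cell is on the side of `u`, or they accumulate inside `S(p)` and the cell is on the other side
(or in a cusp at `S(u)`). -/
theorem sweep_cel (h : Irr U T) {V : Finset ℂ} {p m u : ℂ} (hV : ∀ v ∈ V, dist p v = 1)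
    (hm : m ≠ 0) (hu : dist p u = 1) {P : Set (Fin k)} (h3 : P.ncard ≤ 3)
    (hx : (0 < ip m (u - p) ∧ ∃ᶠ x in 𝓝 u, T x = P ∧ 1 < dist p x) ∨
      (ip m (u - p) ≤ 0 ∧ ∃ᶠ x in 𝓝 u, T x = P ∧ dist p x < 1)) :
    ∃ c ∉ P, OccIn T p (Cel V p m) c := by
  rcases hx with ⟨h1, h2⟩ | ⟨h1, h2⟩
  · refine cell_sweep h (u := u) (σ := 1) (isOpen_Cel V p m) (seg_Cel hV hm) h3 ?_ ?_
    · filter_upwards [seg_in hu h1] with s hs
      linarith
    · exact h2.mono fun x hx => ⟨hx.1, by linarith [hx.2]⟩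
  · refine cell_sweep h (u := u) (σ := -1) (isOpen_Cel V p m) (seg_Cel hV hm) h3 ?_ ?_
    · filter_upwards [seg_out hu hm h1] with s hs
      linarith
    · exact h2.mono fun x hx => ⟨hx.1, by linarith [hx.2]⟩

/-! ### motion along a circle -/

/-- the squared distance of a moving point of `S(w)` from the neighbour `p` of `u` -/
theorem move_sq (w : ℂ) (t s j : ℝ) :
    dist (pt (pt w t) (t + j)) (pt w (t + s)) ^ 2 - 1 =
      8 * (Real.sin (s * (Real.pi / 6)) * Real.sin ((s - j) * (Real.pi / 6)) *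
        Real.cos (j * (Real.pi / 6))) := by
  set x := t * (Real.pi / 3) with hx
  set a := s * (Real.pi / 6) with ha
  set b := j * (Real.pi / 6) with hb
  have e1 : (t + j) * (Real.pi / 3) = x + 2 * b := by rw [hx, hb]; ring
  have e2 : (t + s) * (Real.pi / 3) = x + 2 * a := by rw [hx, ha]; ring
  have e3 : (s - j) * (Real.pi / 6) = a - b := by rw [ha, hb]; ring
  rw [e3, sq_dist]
  unfold pt
  rw [e1, e2]
  simp only [Complex.add_re, Complex.add_im, cis_re, cis_im]
  rw [← hx, Real.cos_add x (2 * b), Real.cos_add x (2 * a), Real.sin_add x (2 * b),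
    Real.sin_add x (2 * a), Real.cos_two_mul, Real.cos_two_mul, Real.sin_two_mul,
    Real.sin_two_mul, Real.sin_sub]
  have h1 := Real.sin_sq_add_cos_sq x
  have h2 := Real.sin_sq_add_cos_sq a
  have h3 := Real.sin_sq_add_cos_sq b
  generalize Real.sin x = sx at *
  generalize Real.cos x = cx at *
  generalize Real.sin a = sa at *
  generalize Real.cos a = ca at *
  generalize Real.sin b = sb at *
  generalize Real.cos b = cb at *
  have hsx : sx ^ 2 = 1 - cx ^ 2 := by linarith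
  have hsa : sa ^ 2 = 1 - ca ^ 2 := by linarith
  have hsb : sb ^ 2 = 1 - cb ^ 2 := by linarith
  have key : (w.re + cx + (cx * (2 * cb ^ 2 - 1) - sx * (2 * sb * cb)) -
        (w.re + (cx * (2 * ca ^ 2 - 1) - sx * (2 * sa * ca)))) ^ 2 +
      (w.im + sx + (sx * (2 * cb ^ 2 - 1) + cx * (2 * sb * cb)) -
        (w.im + (sx * (2 * ca ^ 2 - 1) + cx * (2 * sa * ca)))) ^ 2 =
      (sx ^ 2 + cx ^ 2) * ((1 + (2 * cb ^ 2 - 1) - (2 * ca ^ 2 - 1)) ^ 2 +
        (2 * sb * cb - 2 * sa * ca) ^ 2) := by ring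
  rw [key, h1, one_mul]
  have e4 : (2 * sb * cb - 2 * sa * ca) ^ 2 =
      4 * sb ^ 2 * cb ^ 2 + 4 * sa ^ 2 * ca ^ 2 - 8 * (sa * ca * (sb * cb)) := by ring
  have e5 : 8 * (sa * (sa * cb - ca * sb) * cb) =
      8 * sa ^ 2 * cb ^ 2 - 8 * (sa * ca * (sb * cb)) := by ring
  rw [e4, e5, hsa, hsb]
  ring

theorem dist_slot (w : ℂ) (t j : ℝ) : dist (pt (pt w t) (t + j)) (pt w t) = 1 := dist_pt _ _

theorem sq_lt {a : ℝ} (ha : 0 ≤ a) : (a < 1 ↔ a ^ 2 - 1 < 0) ∧ (1 < a ↔ 0 < a ^ 2 - 1) := by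
  constructor
  · constructor <;> intro h <;> nlinarith
  · constructor <;> intro h <;> nlinarith

theorem sin_neg_of {s j : ℝ} (h0 : s < j) (h6 : j - 6 < s) :
    Real.sin ((s - j) * (Real.pi / 6)) < 0 := by
  have hp := Real.pi_pos
  refine Real.sin_neg_of_neg_of_neg_pi_lt ?_ ?_
  · nlinarith
  · nlinarith

/-- forwards, away from `p` -/
theorem move_right_out {w : ℂ} {t s j : ℝ} (hj : 3 < j) (hj6 : j < 6) (hs : 0 < s) (hs3 : s < 3) :
    1 < dist (pt (pt w t) (t + j)) (pt w (t + s)) := by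
  rw [(sq_lt dist_nonneg).2, move_sq]
  have hp := Real.pi_pos
  have h1 : 0 < Real.sin (s * (Real.pi / 6)) :=
    Real.sin_pos_of_pos_of_lt_pi (by positivity) (by nlinarith)
  have h2 := sin_neg_of (s := s) (j := j) (by linarith) (by linarith)
  have h3 : Real.cos (j * (Real.pi / 6)) < 0 :=
    Real.cos_neg_of_pi_div_two_lt_of_lt (by nlinarith) (by nlinarith)
  have := mul_pos_of_neg_of_neg (mul_neg_of_pos_of_neg h1 h2) h3
  linarith

/-- forwards, towards `p` -/
theorem move_right_in {w : ℂ} {t s j : ℝ} (hj : 0 < j) (hj3 : j < 3) (hs : 0 < s) (hsj : s < j) :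
    dist (pt (pt w t) (t + j)) (pt w (t + s)) < 1 := by
  rw [(sq_lt dist_nonneg).1, move_sq]
  have hp := Real.pi_pos
  have h1 : 0 < Real.sin (s * (Real.pi / 6)) :=
    Real.sin_pos_of_pos_of_lt_pi (by positivity) (by nlinarith)
  have h2 := sin_neg_of (s := s) (j := j) (by linarith) (by linarith)
  have h3 : 0 < Real.cos (j * (Real.pi / 6)) :=
    Real.cos_pos_of_mem_Ioo ⟨by nlinarith, by nlinarith⟩
  have := mul_neg_of_neg_of_pos (mul_neg_of_pos_of_neg h1 h2) h3
  linarith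

/-- backwards, away from `p` -/
theorem move_left_out {w : ℂ} {t s j : ℝ} (hj : 0 < j) (hj3 : j < 3) (hs : s < 0) (hs3 : -3 < s) :
    1 < dist (pt (pt w t) (t + j)) (pt w (t + s)) := by
  rw [(sq_lt dist_nonneg).2, move_sq]
  have hp := Real.pi_pos
  have h1 : Real.sin (s * (Real.pi / 6)) < 0 :=
    Real.sin_neg_of_neg_of_neg_pi_lt (by nlinarith) (by nlinarith)
  have h2 := sin_neg_of (s := s) (j := j) (by linarith) (by linarith)
  have h3 : 0 < Real.cos (j * (Real.pi / 6)) :=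
    Real.cos_pos_of_mem_Ioo ⟨by nlinarith, by nlinarith⟩
  have := mul_pos (mul_pos_of_neg_of_neg h1 h2) h3
  linarith

/-- backwards, towards `p` -/
theorem move_left_in {w : ℂ} {t s j : ℝ} (hj : 3 < j) (hj6 : j < 6) (hs : s < 0)
    (hsj : j - 6 < s) : dist (pt (pt w t) (t + j)) (pt w (t + s)) < 1 := by
  rw [(sq_lt dist_nonneg).1, move_sq]
  have hp := Real.pi_pos
  have h1 : Real.sin (s * (Real.pi / 6)) < 0 :=
    Real.sin_neg_of_neg_of_neg_pi_lt (by nlinarith) (by nlinarith)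
  have h2 := sin_neg_of (s := s) (j := j) (by linarith) (by linarith)
  have h3 : Real.cos (j * (Real.pi / 6)) < 0 :=
    Real.cos_neg_of_pi_div_two_lt_of_lt (by nlinarith) (by nlinarith)
  have := mul_neg_of_pos_of_neg (mul_pos_of_neg_of_neg h1 h2) h3
  linarith

/-- the antipode `2 u - w` of the centre: always away -/
theorem move_tan {w : ℂ} {t s : ℝ} (hs : s ≠ 0) (hs3 : |s| < 3) :
    1 < dist (pt (pt w t) t) (pt w (t + s)) := by
  have h := move_sq w t s 0
  rw [add_zero] at h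
  rw [(sq_lt dist_nonneg).2, h]
  have hp := Real.pi_pos
  obtain ⟨h1, h2⟩ := abs_lt.1 hs3
  have h3 : Real.sin (s * (Real.pi / 6)) ≠ 0 := by
    rcases lt_or_gt_of_ne hs with h4 | h4
    · exact (Real.sin_neg_of_neg_of_neg_pi_lt (by nlinarith) (by nlinarith)).ne
    · exact (Real.sin_pos_of_pos_of_lt_pi (by positivity) (by nlinarith)).ne'
  have h4 : 0 < Real.sin (s * (Real.pi / 6)) * Real.sin (s * (Real.pi / 6)) :=
    mul_self_pos.2 h3
  simp only [sub_zero, zero_mul, Real.cos_zero, mul_one]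
  linarith

/-! ### the sweep by the letters of a circle -/

/-- an accumulating sequence of times gives points near `u` -/
theorem freq_right {w : ℂ} {t : ℝ} {a b : ℂ → Prop} {δ : ℝ} (hδ : 0 < δ)
    (h : ∃ᶠ v in 𝓝[>] t, a (pt w v)) (hb : ∀ s, 0 < s → s < δ → b (pt w (t + s))) :
    ∃ᶠ x in 𝓝 (pt w t), a x ∧ b x := by
  have h1 : ∀ᶠ v in 𝓝[>] t, b (pt w v) := by
    have h2 : ∀ᶠ v in 𝓝[>] t, v < t + δ :=
      nhdsWithin_le_nhds (Iio_mem_nhds (by linarith : t < t + δ))
    filter_upwards [h2, self_mem_nhdsWithin] with v hv1 hv2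
    have hv2 : t < v := hv2
    have := hb (v - t) (by linarith) (by linarith)
    rwa [add_sub_cancel] at this
  have h3 : Tendsto (pt w) (𝓝[>] t) (𝓝 (pt w t)) :=
    ((continuous_pt w).tendsto t).mono_left nhdsWithin_le_nhds
  exact h3.frequently ((h.and_eventually h1).mono fun v hv => hv)

theorem freq_left {w : ℂ} {t : ℝ} {a b : ℂ → Prop} {δ : ℝ} (hδ : 0 < δ)
    (h : ∃ᶠ v in 𝓝[<] t, a (pt w v)) (hb : ∀ s, s < 0 → -δ < s → b (pt w (t + s))) :
    ∃ᶠ x in 𝓝 (pt w t), a x ∧ b x := by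
  have h1 : ∀ᶠ v in 𝓝[<] t, b (pt w v) := by
    have h2 : ∀ᶠ v in 𝓝[<] t, t - δ < v :=
      nhdsWithin_le_nhds (Ioi_mem_nhds (by linarith : t - δ < t))
    filter_upwards [h2, self_mem_nhdsWithin] with v hv1 hv2
    have hv2 : v < t := hv2
    have := hb (v - t) (by linarith) (by linarith)
    rwa [add_sub_cancel] at this
  have h3 : Tendsto (pt w) (𝓝[<] t) (𝓝 (pt w t)) :=
    ((continuous_pt w).tendsto t).mono_left nhdsWithin_le_nhds
  exact h3.frequently ((h.and_eventually h1).mono fun v hv => hv)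

/-- **The sweep by the letters after `t`** of the circle about `w`: the cell `Cel V p m` of the
neighbour `p` (number `j`) of `u = pt w t` has a colour outside the letter `P`, if
`j = 0` or `3 < j < 6` (the points go away from `p`) and the cell is on the side of `u`, or
`0 < j < 3` and the cell is on the other side. -/
theorem sweep_right (h : Irr U T) {V : Finset ℂ} {w m : ℂ} {t j : ℝ}
    (hV : ∀ v ∈ V, dist (pt (pt w t) (t + j)) v = 1) (hm : m ≠ 0) {P : Set (Fin k)}
    (h3 : P.ncard ≤ 3) (hP : ∃ᶠ v in 𝓝[>] t, T (pt w v) = P)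
    (hc : ((j = 0 ∨ (3 < j ∧ j < 6)) ∧ 0 < ip m (pt w t - pt (pt w t) (t + j))) ∨
      ((0 < j ∧ j < 3) ∧ ip m (pt w t - pt (pt w t) (t + j)) ≤ 0)) :
    ∃ c ∉ P, OccIn T (pt (pt w t) (t + j)) (Cel V (pt (pt w t) (t + j)) m) c := by
  refine sweep_cel h (u := pt w t) hV hm (dist_slot w t j) h3 ?_
  rcases hc with ⟨hj, hi⟩ | ⟨hj, hi⟩
  · refine Or.inl ⟨hi, freq_right (δ := 3) (by norm_num)
      (a := fun x => T x = P) (b := fun x => 1 < dist (pt (pt w t) (t + j)) x) hP ?_⟩
    intro s hs0 hs3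
    rcases hj with rfl | ⟨h4, h5⟩
    · rw [add_zero]
      exact move_tan hs0.ne' (by rw [abs_of_pos hs0]; exact hs3)
    · exact move_right_out h4 h5 hs0 hs3
  · refine Or.inr ⟨hi, freq_right (δ := j) hj.1
      (a := fun x => T x = P) (b := fun x => dist (pt (pt w t) (t + j)) x < 1) hP ?_⟩
    intro s hs0 hsj
    exact move_right_in hj.1 hj.2 hs0 hsj

/-- **The sweep by the letters before `t`**: `0 ≤ j < 3` away from `p`, `3 < j < 6` towards `p`. -/
theorem sweep_left (h : Irr U T) {V : Finset ℂ} {w m : ℂ} {t j : ℝ}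
    (hV : ∀ v ∈ V, dist (pt (pt w t) (t + j)) v = 1) (hm : m ≠ 0) {P : Set (Fin k)}
    (h3 : P.ncard ≤ 3) (hP : ∃ᶠ v in 𝓝[<] t, T (pt w v) = P)
    (hc : ((0 ≤ j ∧ j < 3) ∧ 0 < ip m (pt w t - pt (pt w t) (t + j))) ∨
      ((3 < j ∧ j < 6) ∧ ip m (pt w t - pt (pt w t) (t + j)) ≤ 0)) :
    ∃ c ∉ P, OccIn T (pt (pt w t) (t + j)) (Cel V (pt (pt w t) (t + j)) m) c := by
  refine sweep_cel h (u := pt w t) hV hm (dist_slot w t j) h3 ?_
  rcases hc with ⟨hj, hi⟩ | ⟨hj, hi⟩
  · refine Or.inl ⟨hi, freq_left (δ := 3) (by norm_num)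
      (a := fun x => T x = P) (b := fun x => 1 < dist (pt (pt w t) (t + j)) x) hP ?_⟩
    intro s hs0 hs3
    rcases hj.1.eq_or_lt with h0 | h4
    · rw [← h0, add_zero]
      exact move_tan hs0.ne (by rw [abs_of_neg hs0]; linarith)
    · exact move_left_out h4 hj.2 hs0 hs3
  · refine Or.inr ⟨hi, freq_left (δ := 6 - j) (by linarith [hj.2])
      (a := fun x => T x = P) (b := fun x => dist (pt (pt w t) (t + j)) x < 1) hP ?_⟩
    intro s hs0 hsj
    exact move_left_in hj.1 hj.2 hs0 (by linarith)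

end Vale.Agent.P032.H782
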