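import Vale.Agent.P032.H782.Cel

/-!
# P032: the sweep of the cells at the centre of the circle by its own letters

Angles in units of 60 degrees.  Points of `S(w)` with the exact palette `P` (at most three colours)
accumulate at the time `t` from the right (left): then a colour outside `P` occurs at `w` in the cusp
at the ray `t + 3/2` (`t - 3/2`), in the next sector after it, and in the sector inside `S (pt w t)`
at the other ray.
-/

open Set Filter Topology Metric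

noncomputable section

namespace Vale.Agent.P032.H782

open Vale.Agent.P032.Six Vale.Agent.P032.S5.H767

variable {k : ℕ} {U : Fin k → Set ℂ} {T : ℂ → Set (Fin k)}

/-- the points of the finite set are neighbours of `w` in the lattice directions of the time `t` -/
def Nb (V : Finset ℂ) (w : ℂ) (t : ℝ) : Prop := ∀ v ∈ V, ∃ i : ℤ, v = pt w (t + i)

theorem pt_period (z : ℂ) (u : ℝ) (n : ℤ) : pt z (u + n * 6) = pt z u := by
  have h : Function.Periodic (pt z) 6 := pt_six z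
  exact h.int_mul n u

/-- the number of a direction in a given range -/
theorem Nb.range {V : Finset ℂ} {w : ℂ} {t : ℝ} (hV : Nb V w t) (r : ℤ) {v : ℂ} (hv : v ∈ V) :
    ∃ i : ℤ, r ≤ i ∧ i < r + 6 ∧ v = pt w (t + i) := by
  obtain ⟨i, rfl⟩ := hV v hv
  refine ⟨r + (i - r) % 6, ?_, ?_, ?_⟩
  · have := Int.emod_nonneg (i - r) (show (6 : ℤ) ≠ 0 by norm_num)
    linarith
  · have := Int.emod_lt_of_pos (i - r) (show (0 : ℤ) < 6 by norm_num)
    linarith
  · have h1 : i = r + (i - r) % 6 + (i - r) / 6 * 6 := by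
      have := Int.emod_add_mul_ediv (i - r) 6
      linarith
    have h2 : (t + (i : ℝ)) = t + ((r + (i - r) % 6 : ℤ) : ℝ) + (((i - r) / 6 : ℤ) : ℝ) * 6 := by
      have h3 : (i : ℝ) = ((r + (i - r) % 6 + (i - r) / 6 * 6 : ℤ) : ℝ) := by
        exact_mod_cast h1
      rw [h3]
      push_cast
      ring
    rw [h2, pt_period]

theorem sin_pos' {a : ℝ} (h0 : 0 < a) (h6 : a < 6) : 0 < Real.sin (a * (Real.pi / 6)) := by
  have hp := Real.pi_pos
  exact Real.sin_pos_of_pos_of_lt_pi (by positivity) (by nlinarith)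

theorem sin_neg' {a : ℝ} (h0 : a < 0) (h6 : -6 < a) : Real.sin (a * (Real.pi / 6)) < 0 := by
  have hp := Real.pi_pos
  exact Real.sin_neg_of_neg_of_neg_pi_lt (by nlinarith) (by nlinarith)

theorem cos_pos' {a : ℝ} (h0 : -(3 / 2) < a) (h1 : a < 3 / 2) :
    0 < Real.cos (a * (Real.pi / 3)) := by
  have hp := Real.pi_pos
  exact Real.cos_pos_of_mem_Ioo ⟨by nlinarith, by nlinarith⟩

theorem cos_nonpos' {a : ℝ} (h0 : 3 / 2 ≤ a) (h1 : a ≤ 9 / 2) :
    Real.cos (a * (Real.pi / 3)) ≤ 0 := by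
  have hp := Real.pi_pos
  exact Real.cos_nonpos_of_pi_div_two_le_of_le (by nlinarith) (by nlinarith)

theorem cos_nonpos'' {a : ℝ} (h0 : -(9 / 2) ≤ a) (h1 : a ≤ -(3 / 2)) :
    Real.cos (a * (Real.pi / 3)) ≤ 0 := by
  have h2 := cos_nonpos' (a := -a) (by linarith) (by linarith)
  have e : -a * (Real.pi / 3) = -(a * (Real.pi / 3)) := by ring
  rwa [e, Real.cos_neg] at h2

theorem ip_cis (s t : ℝ) : ip (cis (s * (Real.pi / 3))) (cis (t * (Real.pi / 3))) =
    Real.cos ((s - t) * (Real.pi / 3)) := by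
  have e : (s - t) * (Real.pi / 3) = s * (Real.pi / 3) - t * (Real.pi / 3) := by ring
  unfold ip
  rw [e, Real.cos_sub, cis_re, cis_re, cis_im, cis_im]

theorem ip_slot (w : ℂ) (t μ i : ℝ) :
    ip (cis ((t + μ) * (Real.pi / 3))) (pt w (t + i) - w) = Real.cos ((μ - i) * (Real.pi / 3)) := by
  have e : pt w (t + i) - w = cis ((t + i) * (Real.pi / 3)) := by
    unfold pt; ring
  rw [e, ip_cis]
  congr 1
  ring

/-- the squared distance from the neighbour number `i` -/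
theorem own_sq (w : ℂ) (t x y i : ℝ) :
    dist (pt (pt w (t + x)) (t + 3 + y)) (pt w (t + i)) ^ 2 - 1 =
      8 * (Real.sin ((i - x) * (Real.pi / 6)) * Real.sin ((i - 3 - y) * (Real.pi / 6)) *
        Real.sin ((x - y) * (Real.pi / 6))) := by
  have h := move_sq w (t + x) (i - x) (3 + y - x)
  have e1 : t + x + (3 + y - x) = t + 3 + y := by ring
  have e2 : t + x + (i - x) = t + i := by ring
  have e3 : i - x - (3 + y - x) = i - 3 - y := by ring
  have e4 : (3 + y - x) * (Real.pi / 6) = Real.pi / 2 - (x - y) * (Real.pi / 6) := by ring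
  rw [e1, e2, e3, e4, Real.cos_pi_div_two_sub] at h
  exact h

/-- inside -/
theorem own_in {w : ℂ} {t x y i μ : ℝ}
    (h : Real.sin ((i - x) * (Real.pi / 6)) * Real.sin ((i - 3 - y) * (Real.pi / 6)) *
        Real.sin ((x - y) * (Real.pi / 6)) < 0)
    (hc : 0 < Real.cos ((μ - i) * (Real.pi / 3))) :
    (0 < ip (cis ((t + μ) * (Real.pi / 3))) (pt w (t + i) - w) →
        dist (pt (pt w (t + x)) (t + 3 + y)) (pt w (t + i)) < 1) ∧
      (ip (cis ((t + μ) * (Real.pi / 3))) (pt w (t + i) - w) ≤ 0 →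
        1 < dist (pt (pt w (t + x)) (t + 3 + y)) (pt w (t + i))) := by
  rw [ip_slot]
  refine ⟨fun _ => ?_, fun h1 => absurd h1 (not_le.2 hc)⟩
  rw [(sq_lt dist_nonneg).1, own_sq]
  linarith

/-- outside -/
theorem own_out {w : ℂ} {t x y i μ : ℝ}
    (h : 0 < Real.sin ((i - x) * (Real.pi / 6)) * Real.sin ((i - 3 - y) * (Real.pi / 6)) *
        Real.sin ((x - y) * (Real.pi / 6)))
    (hc : Real.cos ((μ - i) * (Real.pi / 3)) ≤ 0) :
    (0 < ip (cis ((t + μ) * (Real.pi / 3))) (pt w (t + i) - w) →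
        dist (pt (pt w (t + x)) (t + 3 + y)) (pt w (t + i)) < 1) ∧
      (ip (cis ((t + μ) * (Real.pi / 3))) (pt w (t + i) - w) ≤ 0 →
        1 < dist (pt (pt w (t + x)) (t + 3 + y)) (pt w (t + i))) := by
  rw [ip_slot]
  refine ⟨fun h1 => absurd h1 (not_lt.2 hc), fun _ => ?_⟩
  rw [(sq_lt dist_nonneg).2, own_sq]
  linarith

theorem pt_back (w : ℂ) (t : ℝ) : pt (pt w t) (t + 3) = w := by
  rw [pt_three]
  unfold pt
  ring

theorem continuous_pt2 (w : ℂ) (t κ : ℝ) :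
    Continuous fun v : ℝ => pt (pt w v) (t + 3 + κ * (v - t)) := by
  unfold pt
  have h1 : Continuous fun v : ℝ => cis (v * (Real.pi / 3)) := continuous_cis.comp (by fun_prop)
  have h2 : Continuous fun v : ℝ => cis ((t + 3 + κ * (v - t)) * (Real.pi / 3)) :=
    continuous_cis.comp (by fun_prop)
  exact (continuous_const.add h1).add h2

/-- the sweep by the own letters, generic -/
theorem own_gen (h : Irr U T) {V : Finset ℂ} {w m : ℂ} {t κ : ℝ} {l : Filter ℝ} (hl : l ≤ 𝓝 t)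
    {P : Set (Fin k)} (h3 : P.ncard ≤ 3) (hP : ∃ᶠ v in l, T (pt w v) = P)
    (hs : ∀ᶠ v in l, pt (pt w v) (t + 3 + κ * (v - t)) ∈ Cel V w m) :
    ∃ c ∉ P, OccIn T w (Cel V w m) c := by
  by_contra hcon
  push Not at hcon
  have h1 := sub_of_not_occ h (isOpen_Cel V w m) hcon
  have h2 : Tendsto (fun v : ℝ => pt (pt w v) (t + 3 + κ * (v - t))) l (𝓝 w) := by
    have h4 := (continuous_pt2 w t κ).tendsto t
    have e : pt (pt w t) (t + 3 + κ * (t - t)) = w := by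
      rw [sub_self, mul_zero, add_zero, pt_back]
    rw [e] at h4
    exact h4.mono_left hl
  obtain ⟨v, hv1, hv2, hv3⟩ := (hP.and_eventually (hs.and (h2.eventually h1))).exists
  refine h.not_sub (dist_pt (pt w v) (t + 3 + κ * (v - t))) (by rw [hv1]; exact h3) ?_
  rw [hv1]
  exact hv3 hv2

theorem ev_right {t : ℝ} {p : ℝ → Prop} (h : ∀ x, 0 < x → x < 1 / 4 → p (t + x)) :
    ∀ᶠ v in 𝓝[>] t, p v := by
  have h2 : ∀ᶠ v in 𝓝[>] t, v < t + 1 / 4 :=
    nhdsWithin_le_nhds (Iio_mem_nhds (by linarith : t < t + 1 / 4))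
  filter_upwards [h2, self_mem_nhdsWithin] with v hv1 hv2
  have hv2 : t < v := hv2
  have := h (v - t) (by linarith) (by linarith)
  rwa [add_sub_cancel] at this

theorem ev_left {t : ℝ} {p : ℝ → Prop} (h : ∀ x, x < 0 → -(1 / 4) < x → p (t + x)) :
    ∀ᶠ v in 𝓝[<] t, p v := by
  have h2 : ∀ᶠ v in 𝓝[<] t, t - 1 / 4 < v :=
    nhdsWithin_le_nhds (Ioi_mem_nhds (by linarith : t - 1 / 4 < t))
  filter_upwards [h2, self_mem_nhdsWithin] with v hv1 hv2
  have hv2 : v < t := hv2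
  have := h (v - t) (by linarith) (by linarith)
  rwa [add_sub_cancel] at this

theorem mem_Cel_of {V : Finset ℂ} {w : ℂ} {t x κ μ : ℝ} (hV : Nb V w t) (r : ℤ)
    (h : ∀ i : ℤ, r ≤ i → i < r + 6 →
      (0 < ip (cis ((t + μ) * (Real.pi / 3))) (pt w (t + i) - w) →
        dist (pt (pt w (t + x)) (t + 3 + κ * x)) (pt w (t + i)) < 1) ∧
      (ip (cis ((t + μ) * (Real.pi / 3))) (pt w (t + i) - w) ≤ 0 →
        1 < dist (pt (pt w (t + x)) (t + 3 + κ * x)) (pt w (t + i)))) :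
    pt (pt w (t + x)) (t + 3 + κ * (t + x - t)) ∈
      Cel V w (cis ((t + μ) * (Real.pi / 3))) := by
  intro v hv
  obtain ⟨i, h1, h2, rfl⟩ := hV.range r hv
  rw [add_sub_cancel_left]
  exact h i h1 h2

/-- times after `t`: the cusp at the ray `t + 3/2` -/
theorem own_right_cusp (h : Irr U T) {V : Finset ℂ} {w : ℂ} {t : ℝ} (hV : Nb V w t)
    {P : Set (Fin k)} (h3 : P.ncard ≤ 3) (hP : ∃ᶠ v in 𝓝[>] t, T (pt w v) = P) :
    ∃ c ∉ P, OccIn T w (Cel V w (cis ((t + 3 / 2) * (Real.pi / 3)))) c := by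
  refine own_gen h (κ := -1) nhdsWithin_le_nhds h3 hP (ev_right fun x hx0 hx1 => ?_)
  refine mem_Cel_of (κ := -1) hV 0 fun i hi0 hi5 => ?_
  have h5 : 0 < Real.sin ((x - -1 * x) * (Real.pi / 6)) := sin_pos' (by linarith) (by linarith)
  interval_cases i
  · refine own_out (mul_pos (mul_pos_of_neg_of_neg (sin_neg' ?_ ?_) (sin_neg' ?_ ?_)) h5)
      (cos_nonpos' ?_ ?_) <;> push_cast <;> linarith
  · refine own_in (mul_neg_of_neg_of_pos (mul_neg_of_pos_of_neg (sin_pos' ?_ ?_) (sin_neg' ?_ ?_)) h5)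
      (cos_pos' ?_ ?_) <;> push_cast <;> linarith
  · refine own_in (mul_neg_of_neg_of_pos (mul_neg_of_pos_of_neg (sin_pos' ?_ ?_) (sin_neg' ?_ ?_)) h5)
      (cos_pos' ?_ ?_) <;> push_cast <;> linarith
  · refine own_out (mul_pos (mul_pos (sin_pos' ?_ ?_) (sin_pos' ?_ ?_)) h5)
      (cos_nonpos'' ?_ ?_) <;> push_cast <;> linarith
  · refine own_out (mul_pos (mul_pos (sin_pos' ?_ ?_) (sin_pos' ?_ ?_)) h5)
      (cos_nonpos'' ?_ ?_) <;> push_cast <;> linarith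
  · refine own_out (mul_pos (mul_pos (sin_pos' ?_ ?_) (sin_pos' ?_ ?_)) h5)
      (cos_nonpos'' ?_ ?_) <;> push_cast <;> linarith

/-- times after `t`: the sector after the ray `t + 3/2` -/
theorem own_right_far (h : Irr U T) {V : Finset ℂ} {w : ℂ} {t μ : ℝ} (hV : Nb V w t)
    (hμ : 3 / 2 < μ) (hμ' : μ < 5 / 2)
    {P : Set (Fin k)} (h3 : P.ncard ≤ 3) (hP : ∃ᶠ v in 𝓝[>] t, T (pt w v) = P) :
    ∃ c ∉ P, OccIn T w (Cel V w (cis ((t + μ) * (Real.pi / 3)))) c := by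
  refine own_gen h (κ := 1 / 2) nhdsWithin_le_nhds h3 hP (ev_right fun x hx0 hx1 => ?_)
  refine mem_Cel_of (κ := 1 / 2) hV 0 fun i hi0 hi5 => ?_
  have h5 : 0 < Real.sin ((x - 1 / 2 * x) * (Real.pi / 6)) := sin_pos' (by linarith) (by linarith)
  interval_cases i
  · refine own_out (mul_pos (mul_pos_of_neg_of_neg (sin_neg' ?_ ?_) (sin_neg' ?_ ?_)) h5)
      (cos_nonpos' ?_ ?_) <;> push_cast <;> linarith
  · refine own_in (mul_neg_of_neg_of_pos (mul_neg_of_pos_of_neg (sin_pos' ?_ ?_) (sin_neg' ?_ ?_)) h5)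
      (cos_pos' ?_ ?_) <;> push_cast <;> linarith
  · refine own_in (mul_neg_of_neg_of_pos (mul_neg_of_pos_of_neg (sin_pos' ?_ ?_) (sin_neg' ?_ ?_)) h5)
      (cos_pos' ?_ ?_) <;> push_cast <;> linarith
  · refine own_in (mul_neg_of_neg_of_pos (mul_neg_of_pos_of_neg (sin_pos' ?_ ?_) (sin_neg' ?_ ?_)) h5)
      (cos_pos' ?_ ?_) <;> push_cast <;> linarith
  · refine own_out (mul_pos (mul_pos (sin_pos' ?_ ?_) (sin_pos' ?_ ?_)) h5)
      (cos_nonpos'' ?_ ?_) <;> push_cast <;> linarith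
  · refine own_out (mul_pos (mul_pos (sin_pos' ?_ ?_) (sin_pos' ?_ ?_)) h5)
      (cos_nonpos'' ?_ ?_) <;> push_cast <;> linarith

/-- times after `t`: the sector inside `S (pt w t)` after the ray `t - 3/2` -/
theorem own_right_near (h : Irr U T) {V : Finset ℂ} {w : ℂ} {t μ : ℝ} (hV : Nb V w t)
    (hμ : -(3 / 2) < μ) (hμ' : μ < -(1 / 2))
    {P : Set (Fin k)} (h3 : P.ncard ≤ 3) (hP : ∃ᶠ v in 𝓝[>] t, T (pt w v) = P) :
    ∃ c ∉ P, OccIn T w (Cel V w (cis ((t + μ) * (Real.pi / 3)))) c := by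
  refine own_gen h (κ := 2) nhdsWithin_le_nhds h3 hP (ev_right fun x hx0 hx1 => ?_)
  refine mem_Cel_of (κ := 2) hV (-2) fun i hi0 hi5 => ?_
  have h5 : Real.sin ((x - 2 * x) * (Real.pi / 6)) < 0 := sin_neg' (by linarith) (by linarith)
  interval_cases i
  · refine own_in (mul_neg_of_pos_of_neg (mul_pos_of_neg_of_neg (sin_neg' ?_ ?_) (sin_neg' ?_ ?_)) h5)
      (cos_pos' ?_ ?_) <;> push_cast <;> linarith
  · refine own_in (mul_neg_of_pos_of_neg (mul_pos_of_neg_of_neg (sin_neg' ?_ ?_) (sin_neg' ?_ ?_)) h5)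
      (cos_pos' ?_ ?_) <;> push_cast <;> linarith
  · refine own_in (mul_neg_of_pos_of_neg (mul_pos_of_neg_of_neg (sin_neg' ?_ ?_) (sin_neg' ?_ ?_)) h5)
      (cos_pos' ?_ ?_) <;> push_cast <;> linarith
  · refine own_out (mul_pos_of_neg_of_neg (mul_neg_of_pos_of_neg (sin_pos' ?_ ?_) (sin_neg' ?_ ?_)) h5)
      (cos_nonpos'' ?_ ?_) <;> push_cast <;> linarith
  · refine own_out (mul_pos_of_neg_of_neg (mul_neg_of_pos_of_neg (sin_pos' ?_ ?_) (sin_neg' ?_ ?_)) h5)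
      (cos_nonpos'' ?_ ?_) <;> push_cast <;> linarith
  · refine own_out (mul_pos_of_neg_of_neg (mul_neg_of_pos_of_neg (sin_pos' ?_ ?_) (sin_neg' ?_ ?_)) h5)
      (cos_nonpos'' ?_ ?_) <;> push_cast <;> linarith

/-- times before `t`: the cusp at the ray `t - 3/2` -/
theorem own_left_cusp (h : Irr U T) {V : Finset ℂ} {w : ℂ} {t : ℝ} (hV : Nb V w t)
    {P : Set (Fin k)} (h3 : P.ncard ≤ 3) (hP : ∃ᶠ v in 𝓝[<] t, T (pt w v) = P) :
    ∃ c ∉ P, OccIn T w (Cel V w (cis ((t + -(3 / 2)) * (Real.pi / 3)))) c := by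
  refine own_gen h (κ := -1) nhdsWithin_le_nhds h3 hP (ev_left fun x hx0 hx1 => ?_)
  refine mem_Cel_of (κ := -1) hV (-2) fun i hi0 hi5 => ?_
  have h5 : Real.sin ((x - -1 * x) * (Real.pi / 6)) < 0 := sin_neg' (by linarith) (by linarith)
  interval_cases i
  · refine own_in (mul_neg_of_pos_of_neg (mul_pos_of_neg_of_neg (sin_neg' ?_ ?_) (sin_neg' ?_ ?_)) h5)
      (cos_pos' ?_ ?_) <;> push_cast <;> linarith
  · refine own_in (mul_neg_of_pos_of_neg (mul_pos_of_neg_of_neg (sin_neg' ?_ ?_) (sin_neg' ?_ ?_)) h5)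
      (cos_pos' ?_ ?_) <;> push_cast <;> linarith
  · refine own_out (mul_pos_of_neg_of_neg (mul_neg_of_pos_of_neg (sin_pos' ?_ ?_) (sin_neg' ?_ ?_)) h5)
      (cos_nonpos'' ?_ ?_) <;> push_cast <;> linarith
  · refine own_out (mul_pos_of_neg_of_neg (mul_neg_of_pos_of_neg (sin_pos' ?_ ?_) (sin_neg' ?_ ?_)) h5)
      (cos_nonpos'' ?_ ?_) <;> push_cast <;> linarith
  · refine own_out (mul_pos_of_neg_of_neg (mul_neg_of_pos_of_neg (sin_pos' ?_ ?_) (sin_neg' ?_ ?_)) h5)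
      (cos_nonpos'' ?_ ?_) <;> push_cast <;> linarith
  · refine own_out (mul_pos_of_neg_of_neg (mul_neg_of_pos_of_neg (sin_pos' ?_ ?_) (sin_neg' ?_ ?_)) h5)
      (cos_nonpos'' ?_ ?_) <;> push_cast <;> linarith

/-- times before `t`: the sector before the ray `t - 3/2` -/
theorem own_left_far (h : Irr U T) {V : Finset ℂ} {w : ℂ} {t μ : ℝ} (hV : Nb V w t)
    (hμ : -(5 / 2) < μ) (hμ' : μ < -(3 / 2))
    {P : Set (Fin k)} (h3 : P.ncard ≤ 3) (hP : ∃ᶠ v in 𝓝[<] t, T (pt w v) = P) :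
    ∃ c ∉ P, OccIn T w (Cel V w (cis ((t + μ) * (Real.pi / 3)))) c := by
  refine own_gen h (κ := 1 / 2) nhdsWithin_le_nhds h3 hP (ev_left fun x hx0 hx1 => ?_)
  refine mem_Cel_of (κ := 1 / 2) hV (-3) fun i hi0 hi5 => ?_
  have h5 : Real.sin ((x - 1 / 2 * x) * (Real.pi / 6)) < 0 := sin_neg' (by linarith) (by linarith)
  interval_cases i
  · refine own_in (mul_neg_of_pos_of_neg (mul_pos_of_neg_of_neg (sin_neg' ?_ ?_) (sin_neg' ?_ ?_)) h5)
      (cos_pos' ?_ ?_) <;> push_cast <;> linarith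
  · refine own_in (mul_neg_of_pos_of_neg (mul_pos_of_neg_of_neg (sin_neg' ?_ ?_) (sin_neg' ?_ ?_)) h5)
      (cos_pos' ?_ ?_) <;> push_cast <;> linarith
  · refine own_in (mul_neg_of_pos_of_neg (mul_pos_of_neg_of_neg (sin_neg' ?_ ?_) (sin_neg' ?_ ?_)) h5)
      (cos_pos' ?_ ?_) <;> push_cast <;> linarith
  · refine own_out (mul_pos_of_neg_of_neg (mul_neg_of_pos_of_neg (sin_pos' ?_ ?_) (sin_neg' ?_ ?_)) h5)
      (cos_nonpos'' ?_ ?_) <;> push_cast <;> linarith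
  · refine own_out (mul_pos_of_neg_of_neg (mul_neg_of_pos_of_neg (sin_pos' ?_ ?_) (sin_neg' ?_ ?_)) h5)
      (cos_nonpos'' ?_ ?_) <;> push_cast <;> linarith
  · refine own_out (mul_pos_of_neg_of_neg (mul_neg_of_pos_of_neg (sin_pos' ?_ ?_) (sin_neg' ?_ ?_)) h5)
      (cos_nonpos'' ?_ ?_) <;> push_cast <;> linarith

/-- times before `t`: the sector inside `S (pt w t)` before the ray `t + 3/2` -/
theorem own_left_near (h : Irr U T) {V : Finset ℂ} {w : ℂ} {t μ : ℝ} (hV : Nb V w t)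
    (hμ : 1 / 2 < μ) (hμ' : μ < 3 / 2)
    {P : Set (Fin k)} (h3 : P.ncard ≤ 3) (hP : ∃ᶠ v in 𝓝[<] t, T (pt w v) = P) :
    ∃ c ∉ P, OccIn T w (Cel V w (cis ((t + μ) * (Real.pi / 3)))) c := by
  refine own_gen h (κ := 2) nhdsWithin_le_nhds h3 hP (ev_left fun x hx0 hx1 => ?_)
  refine mem_Cel_of (κ := 2) hV 0 fun i hi0 hi5 => ?_
  have h5 : 0 < Real.sin ((x - 2 * x) * (Real.pi / 6)) := sin_pos' (by linarith) (by linarith)
  interval_cases i
  · refine own_in (mul_neg_of_neg_of_pos (mul_neg_of_pos_of_neg (sin_pos' ?_ ?_) (sin_neg' ?_ ?_)) h5)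
      (cos_pos' ?_ ?_) <;> push_cast <;> linarith
  · refine own_in (mul_neg_of_neg_of_pos (mul_neg_of_pos_of_neg (sin_pos' ?_ ?_) (sin_neg' ?_ ?_)) h5)
      (cos_pos' ?_ ?_) <;> push_cast <;> linarith
  · refine own_in (mul_neg_of_neg_of_pos (mul_neg_of_pos_of_neg (sin_pos' ?_ ?_) (sin_neg' ?_ ?_)) h5)
      (cos_pos' ?_ ?_) <;> push_cast <;> linarith
  · refine own_out (mul_pos (mul_pos (sin_pos' ?_ ?_) (sin_pos' ?_ ?_)) h5)
      (cos_nonpos'' ?_ ?_) <;> push_cast <;> linarith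
  · refine own_out (mul_pos (mul_pos (sin_pos' ?_ ?_) (sin_pos' ?_ ?_)) h5)
      (cos_nonpos'' ?_ ?_) <;> push_cast <;> linarith
  · refine own_out (mul_pos (mul_pos (sin_pos' ?_ ?_) (sin_pos' ?_ ?_)) h5)
      (cos_nonpos'' ?_ ?_) <;> push_cast <;> linarith

end Vale.Agent.P032.H782
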