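import Vale.Agent.P032.S5.H483.Irr

/-!
# P032: the cell form of the sweep

`cell_sweep` : `C` is an open set which contains a short segment `p + s m` (`0 < s` small), on which
`dist · u` is on one side of `1`; points `x` with the exact palette `P` (at most three colours)
accumulate at `u`, and are on the other side of `S(p)`.  Then some colour outside `P` occurs in `C`
arbitrarily near `p`.  (The circles about the points `x` meet the segment, and two points at distance
one with at most three colours at one of them never have nested palettes.)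
-/

open Set Filter Topology Metric

noncomputable section

namespace Vale.Agent.P032.H782

open Vale.Agent.P032.Six

variable {k : ℕ} {U : Fin k → Set ℂ} {T : ℂ → Set (Fin k)}

/-- the colour `c` occurs (alone) in `C` arbitrarily near `p` -/
def OccIn (T : ℂ → Set (Fin k)) (p : ℂ) (C : Set ℂ) (c : Fin k) : Prop :=
  ∃ᶠ w in 𝓝 p, T w = {c} ∧ w ∈ C

theorem OccIn.mono {p : ℂ} {C D : Set ℂ} {c : Fin k} (h : OccIn T p C c) (hCD : C ⊆ D) :
    OccIn T p D c :=
  Filter.Frequently.mono h fun _ hw => ⟨hw.1, hCD hw.2⟩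

/-- only the germ of the region matters -/
theorem OccIn.mono_ev {p : ℂ} {C D : Set ℂ} {c : Fin k} (h : OccIn T p C c)
    (hCD : ∀ᶠ w in 𝓝 p, w ∈ C → w ∈ D) : OccIn T p D c :=
  (Filter.Frequently.and_eventually h hCD).mono fun _ hw => ⟨hw.1.1, hw.2 hw.1.2⟩

/-- a colour of the palettes in an open region near `p` occurs there -/
theorem occ_of_T (h : Irr U T) {p : ℂ} {C : Set ℂ} (hC : IsOpen C) {c : Fin k}
    (hf : ∃ᶠ w in 𝓝 p, c ∈ T w ∧ w ∈ C) : OccIn T p C c := by
  unfold OccIn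
  rw [frequently_iff]
  intro N hN
  obtain ⟨N', hN'N, hN'o, hN'⟩ := _root_.mem_nhds_iff.1 hN
  obtain ⟨w, ⟨h1, h2⟩, h3⟩ := (hf.and_eventually (hN'o.mem_nhds hN')).exists
  obtain ⟨v, h4, h5⟩ := ((h.pure w c h1).and_eventually ((hC.inter hN'o).mem_nhds ⟨h2, h3⟩)).exists
  exact ⟨v, hN'N h5.2, h4, h5.1⟩

/-- an occurring colour is in `T p` -/
theorem OccIn.mem (h : Irr U T) {p : ℂ} {C : Set ℂ} {c : Fin k} (ho : OccIn T p C c) :
    c ∈ T p := by
  have hcl : p ∈ closure {x | c ∈ T x} := by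
    rw [mem_closure_iff_frequently]
    refine Filter.Frequently.mono ho fun w hw => ?_
    show c ∈ T w
    rw [hw.1]
    rfl
  rwa [(h.closed c).closure_eq] at hcl

/-- the open sets near an occurring colour -/
theorem OccIn.freq (h : Irr U T) {p : ℂ} {C : Set ℂ} {c : Fin k} (ho : OccIn T p C c) :
    ∃ᶠ w in 𝓝 p, w ∈ U c ∧ w ∈ C :=
  Filter.Frequently.mono ho fun w hw => ⟨h.mem_of_single (by rw [hw.1]), hw.2⟩

/-- if no colour outside `P` occurs in the open region `C` near `p`, then the palettes there are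
inside `P` -/
theorem sub_of_not_occ (h : Irr U T) {p : ℂ} {C : Set ℂ} (hC : IsOpen C) {P : Set (Fin k)}
    (hn : ∀ c, c ∉ P → ¬ OccIn T p C c) : ∀ᶠ w in 𝓝 p, w ∈ C → T w ⊆ P := by
  have h1 : ∀ c, ∀ᶠ w in 𝓝 p, w ∈ C → c ∈ T w → c ∈ P := by
    intro c
    by_cases hc : c ∈ P
    · exact Eventually.of_forall fun _ _ _ => hc
    · have h2 : ¬ ∃ᶠ w in 𝓝 p, c ∈ T w ∧ w ∈ C := fun hf => hn c hc (occ_of_T h hC hf)
      rw [Filter.not_frequently] at h2
      filter_upwards [h2] with w hw hwC hcw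
      exact absurd ⟨hcw, hwC⟩ hw
  filter_upwards [eventually_all.2 h1] with w hw hwC c hc
  exact hw c hwC hc

/-- **Every open cell with a nonempty germ has a colour.** -/
theorem occ_exists (h : Irr U T) {p m : ℂ} {C : Set ℂ} (hC : IsOpen C)
    (hm : ∀ᶠ s : ℝ in 𝓝[>] 0, p + s * m ∈ C) : ∃ c, OccIn T p C c := by
  by_contra hcon
  push Not at hcon
  have h1 := sub_of_not_occ h (P := ∅) hC (fun c _ => hcon c)
  have h2 : Tendsto (fun s : ℝ => p + (s : ℂ) * m) (𝓝[>] (0 : ℝ)) (𝓝 p) := by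
    have h3 : Continuous fun s : ℝ => p + (s : ℂ) * m := by fun_prop
    have h4 := h3.tendsto 0
    simp only [Complex.ofReal_zero, zero_mul, add_zero] at h4
    exact h4.mono_left nhdsWithin_le_nhds
  obtain ⟨s, hs1, hs2⟩ := ((h2.eventually h1).and hm).exists
  obtain ⟨c, hc⟩ := h.ne (p + s * m)
  exact hs1 hs2 hc

/-- **The cell form of the sweep**, both sides: `σ = 1`: the segment is inside `D(u)` and the points
`x` are outside `D(p)`; `σ = -1`: the segment is outside and the points are inside. -/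
theorem cell_sweep (h : Irr U T) {u p m : ℂ} {C : Set ℂ} (hC : IsOpen C)
    (hm : ∀ᶠ s : ℝ in 𝓝[>] 0, p + s * m ∈ C) {P : Set (Fin k)} (h3 : P.ncard ≤ 3) {σ : ℝ}
    (hu : ∀ᶠ s : ℝ in 𝓝[>] 0, 0 < σ * (1 - dist (p + s * m) u))
    (hx : ∃ᶠ x in 𝓝 u, T x = P ∧ 0 < σ * (dist p x - 1)) : ∃ c ∉ P, OccIn T p C c := by
  by_contra hcon
  push Not at hcon
  have h1 := sub_of_not_occ h hC hcon
  have hc3 : Continuous fun s : ℝ => p + (s : ℂ) * m := by fun_prop
  have h2 : Tendsto (fun s : ℝ => p + (s : ℂ) * m) (𝓝[>] (0 : ℝ)) (𝓝 p) := by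
    have h4 := hc3.tendsto 0
    simp only [Complex.ofReal_zero, zero_mul, add_zero] at h4
    exact h4.mono_left nhdsWithin_le_nhds
  -- a whole interval of good parameters
  have h5 : ∀ᶠ s : ℝ in 𝓝[>] 0, T (p + s * m) ⊆ P ∧ 0 < σ * (1 - dist (p + s * m) u) := by
    filter_upwards [h2.eventually h1, hm, hu] with s a b c
    exact ⟨a b, c⟩
  obtain ⟨δ, hδ, h6⟩ := mem_nhdsGT_iff_exists_Ioo_subset.1 h5
  have hδ0 : (0 : ℝ) < δ := hδ
  have h7 : ∀ s : ℝ, 0 < s → s < δ → T (p + s * m) ⊆ P ∧ 0 < σ * (1 - dist (p + s * m) u) :=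
    fun s hs0 hs1 => h6 ⟨hs0, hs1⟩
  set s0 : ℝ := δ / 2 with hs0
  have hs0p : 0 < s0 := by rw [hs0]; linarith
  have hs0d : s0 < δ := by rw [hs0]; linarith
  -- the end of the segment is still on the right side of `S(x)`
  have h8 : ∀ᶠ x in 𝓝 u, 0 < σ * (1 - dist (p + s0 * m) x) := by
    have hc : Continuous fun x : ℂ => σ * (1 - dist (p + s0 * m) x) := by fun_prop
    exact hc.continuousAt.eventually (Ioi_mem_nhds (h7 s0 hs0p hs0d).2)
  obtain ⟨x, ⟨hx1, hx2⟩, hx3⟩ := (hx.and_eventually h8).exists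
  -- the segment meets `S(x)`
  have hf : Continuous fun s : ℝ => σ * (dist (p + s * m) x - 1) := by fun_prop
  have hf0 : 0 < σ * (dist (p + ((0 : ℝ) : ℂ) * m) x - 1) := by
    simpa using hx2
  have hf1 : σ * (dist (p + s0 * m) x - 1) < 0 := by linarith [hx3]
  obtain ⟨s, ⟨hs1, hs2⟩, hs3⟩ := intermediate_value_Icc' hs0p.le hf.continuousOn
    (show (0 : ℝ) ∈ Icc _ _ from ⟨hf1.le, hf0.le⟩)
  have hs3 : σ * (dist (p + s * m) x - 1) = 0 := hs3
  have hσ : σ ≠ 0 := by
    rintro rfl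
    rw [zero_mul] at hf0
    exact lt_irrefl _ hf0
  have hd : dist (p + s * m) x = 1 := by
    have := (mul_eq_zero.1 hs3).resolve_left hσ
    linarith
  have hsp : 0 < s := by
    rcases hs1.eq_or_lt with h9 | h9
    · rw [← h9] at hs3
      rw [hs3] at hf0
      exact absurd hf0 (lt_irrefl _)
    · exact h9
  exact h.not_sub hd (by rw [hx1]; exact h3) (by rw [hx1]; exact (h7 s hsp (by linarith)).1)

end Vale.Agent.P032.H782
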